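import Mathlib

/-!
# P126: covering numbers and polars in Euclidean space (definitions)
-/

namespace Vale.Agent.Lib.P126

open Set

/-- `CoveredBy m A B`: the set `A` is contained in the union of `m` translates `x i + B` of `B`,
with arbitrary centres `x i`. -/
def CoveredBy {n : ℕ} (m : ℕ) (A B : Set (EuclideanSpace ℝ (Fin n))) : Prop :=
  ∃ x : Fin m → EuclideanSpace ℝ (Fin n), A ⊆ ⋃ i, (fun b => x i + b) '' B

/-- The covering number `N(A, B)`: the least number of translates of `B` whose union
contains `A`. -/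
noncomputable def coveringNumber {n : ℕ} (A B : Set (EuclideanSpace ℝ (Fin n))) : ℕ :=
  sInf {m : ℕ | CoveredBy m A B}

/-- The polar `{y : ⟨x, y⟩ ≤ 1 for all x ∈ K}` with respect to the standard inner product. -/
def polar {n : ℕ} (K : Set (EuclideanSpace ℝ (Fin n))) : Set (EuclideanSpace ℝ (Fin n)) :=
  {y | ∀ x ∈ K, inner ℝ x y ≤ 1}

/-- An origin-symmetric convex body: compact, convex, with nonempty interior, and `K = -K`. -/
def IsSymConvexBody {n : ℕ} (K : Set (EuclideanSpace ℝ (Fin n))) : Prop :=
  IsCompact K ∧ Convex ℝ K ∧ (interior K).Nonempty ∧ ∀ x ∈ K, -x ∈ K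

end Vale.Agent.Lib.P126
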