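import Vale.Agent.Lib.P126.Volumetric

/-!
# P126: duality of covering numbers for pairs at bounded geometric distance
-/

namespace Vale.Agent.Lib.P126

open MeasureTheory Set Pointwise

variable {n : ℕ}

lemma coveredBy_iff {m : ℕ} {A B : Set (EuclideanSpace ℝ (Fin n))} :
    CoveredBy m A B ↔ ∃ x : Fin m → EuclideanSpace ℝ (Fin n), A ⊆ ⋃ i, (x i +ᵥ B) := Iff.rfl

lemma CoveredBy.mono {m : ℕ} {A A' B B' : Set (EuclideanSpace ℝ (Fin n))} (hA : A ⊆ A')
    (hB : B' ⊆ B) (h : CoveredBy m A' B') : CoveredBy m A B := by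
  obtain ⟨x, hx⟩ := coveredBy_iff.mp h
  refine coveredBy_iff.mpr ⟨x, hA.trans (hx.trans ?_)⟩
  exact iUnion_mono (fun i => Set.vadd_set_mono hB)

lemma coveredBy_one {A B : Set (EuclideanSpace ℝ (Fin n))} (h : A ⊆ B) : CoveredBy 1 A B := by
  refine coveredBy_iff.mpr ⟨fun _ => 0, fun y hy => ?_⟩
  rw [mem_iUnion]
  exact ⟨0, by simpa using h hy⟩

lemma CoveredBy.pos {m : ℕ} {A B : Set (EuclideanSpace ℝ (Fin n))} (hA : A.Nonempty)
    (h : CoveredBy m A B) : 1 ≤ m := by
  obtain ⟨x, hx⟩ := coveredBy_iff.mp h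
  obtain ⟨a, ha⟩ := hA
  have := hx ha
  rw [mem_iUnion] at this
  obtain ⟨i, _⟩ := this
  have := i.isLt
  omega

lemma cov_le {m : ℕ} {A B : Set (EuclideanSpace ℝ (Fin n))} (h : CoveredBy m A B) :
    coveringNumber A B ≤ m := Nat.sInf_le h

lemma le_cov {k : ℕ} {A B : Set (EuclideanSpace ℝ (Fin n))} (hne : ∃ m, CoveredBy m A B)
    (h : ∀ m, CoveredBy m A B → k ≤ m) : k ≤ coveringNumber A B :=
  le_csInf hne (fun m hm => h m hm)

lemma polar_closed (K : Set (EuclideanSpace ℝ (Fin n))) : IsClosed (polar K) := by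
  have : polar K = ⋂ x ∈ K, {y | inner ℝ x y ≤ 1} := by
    ext y; simp [polar]
  rw [this]
  exact isClosed_biInter (fun x _ =>
    isClosed_le (continuous_const.inner continuous_id) continuous_const)

lemma polar_convex (K : Set (EuclideanSpace ℝ (Fin n))) : Convex ℝ (polar K) := by
  intro y hy z hz a b ha hb hab x hx
  rw [inner_add_right, inner_smul_right, inner_smul_right]
  have h1 := hy x hx
  have h2 := hz x hx
  nlinarith

lemma polar_sym {K : Set (EuclideanSpace ℝ (Fin n))} (hK : ∀ x ∈ K, -x ∈ K) :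
    ∀ y ∈ polar K, -y ∈ polar K := by
  intro y hy x hx
  rw [inner_neg_right, ← inner_neg_left]
  exact hy _ (hK x hx)

lemma ball_subset_polar {K : Set (EuclideanSpace ℝ (Fin n))} {R : ℝ} (hR : 0 < R)
    (hK : K ⊆ Metric.closedBall 0 R) : Metric.ball 0 (1 / R) ⊆ polar K := by
  intro y hy x hx
  have hx' : ‖x‖ ≤ R := by simpa using hK hx
  have hy' : ‖y‖ < 1 / R := by simpa using hy
  calc inner ℝ x y ≤ ‖x‖ * ‖y‖ := real_inner_le_norm x y
    _ ≤ R * (1 / R) := by gcongr
    _ = 1 := by field_simp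

lemma polar_subset_ball {K : Set (EuclideanSpace ℝ (Fin n))} {ε : ℝ} (hε : 0 < ε)
    (hK : Metric.ball 0 ε ⊆ K) : polar K ⊆ Metric.closedBall 0 (2 / ε) := by
  intro y hy
  rw [mem_closedBall_zero_iff]
  by_cases h0 : y = 0
  · subst h0
    simp only [norm_zero]
    positivity
  have hny : 0 < ‖y‖ := norm_pos_iff.mpr h0
  have hx : (ε / (2 * ‖y‖)) • y ∈ K := by
    apply hK
    rw [mem_ball_zero_iff, norm_smul, Real.norm_of_nonneg (by positivity)]
    have : ε / (2 * ‖y‖) * ‖y‖ = ε / 2 := by field_simp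
    rw [this]; linarith
  have h := hy _ hx
  rw [inner_smul_left, real_inner_self_eq_norm_sq] at h
  simp only [conj_trivial] at h
  have e : ε / (2 * ‖y‖) * ‖y‖ ^ 2 = ε * ‖y‖ / 2 := by field_simp
  rw [e] at h
  rw [le_div_iff₀ hε]
  linarith

lemma body_ball {L : Set (EuclideanSpace ℝ (Fin n))} (hL : IsSymConvexBody L) :
    ∃ ε > 0, Metric.ball (0 : EuclideanSpace ℝ (Fin n)) ε ⊆ L := by
  obtain ⟨_, hconv, ⟨c, hc⟩, hsym⟩ := hL
  obtain ⟨ε, hε, hball⟩ := Metric.isOpen_iff.mp isOpen_interior c hc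
  refine ⟨ε, hε, fun y hy => ?_⟩
  rw [mem_ball_zero_iff] at hy
  have h1 : c + y ∈ L := interior_subset (hball (by simpa [dist_eq_norm] using hy))
  have h2 : c - y ∈ L := interior_subset (hball (by simpa [dist_eq_norm] using hy))
  have h3 : -(c - y) ∈ L := hsym _ h2
  have e : y = (1 / 2 : ℝ) • (c + y) + (1 / 2 : ℝ) • (-(c - y)) := by
    rw [← smul_add]
    have : c + y + -(c - y) = (2 : ℝ) • y := by rw [two_smul]; abel
    rw [this, smul_smul]; norm_num
  rw [e]
  exact hconv h1 h3 (by norm_num) (by norm_num) (by norm_num)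

/-- The facts on a set used by the volumetric bounds. -/
lemma body_good {L : Set (EuclideanSpace ℝ (Fin n))} (hL : IsSymConvexBody L) :
    MeasurableSet L ∧ Convex ℝ L ∧ (∀ x ∈ L, -x ∈ L) ∧ 0 < volume L ∧ volume L ≠ ⊤ := by
  obtain ⟨hc, hconv, hint, hsym⟩ := hL
  exact ⟨hc.isClosed.measurableSet, hconv, hsym, Measure.measure_pos_of_nonempty_interior _ hint,
    hc.measure_lt_top.ne⟩

lemma polar_good {L : Set (EuclideanSpace ℝ (Fin n))} (hL : IsSymConvexBody L) :
    MeasurableSet (polar L) ∧ Convex ℝ (polar L) ∧ (∀ x ∈ polar L, -x ∈ polar L) ∧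
      0 < volume (polar L) ∧ volume (polar L) ≠ ⊤ := by
  obtain ⟨ε, hε, hball⟩ := body_ball hL
  obtain ⟨hc, hconv, hint, hsym⟩ := hL
  obtain ⟨R, hR, hLR⟩ := hc.isBounded.subset_closedBall_lt 0 (0 : EuclideanSpace ℝ (Fin n))
  refine ⟨(polar_closed L).measurableSet, polar_convex L, polar_sym hsym, ?_, ?_⟩
  · exact lt_of_lt_of_le (Metric.measure_ball_pos volume _ (by positivity))
      (measure_mono (ball_subset_polar hR hLR))
  · exact ((measure_mono (polar_subset_ball hε hball)).trans_lt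
      measure_closedBall_lt_top).ne

/-- `K ⊆ S L` gives `S⁻¹ L° ⊆ K°`. -/
lemma polar_anti_smul {K L : Set (EuclideanSpace ℝ (Fin n))} {S : ℝ} (hS : 0 < S)
    (h : K ⊆ S • L) : S⁻¹ • polar L ⊆ polar K := by
  rintro _ ⟨z, hz, rfl⟩ x hx
  obtain ⟨l, hl, rfl⟩ := h hx
  simp only [inner_smul_left, inner_smul_right, conj_trivial]
  have := hz l hl
  rw [← mul_assoc, inv_mul_cancel₀ hS.ne', one_mul]
  exact this

/-- `s L ⊆ K` gives `K° ⊆ s⁻¹ L°`. -/
lemma polar_smul_anti {K L : Set (EuclideanSpace ℝ (Fin n))} {s : ℝ} (hs : 0 < s)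
    (h : s • L ⊆ K) : polar K ⊆ s⁻¹ • polar L := by
  intro y hy
  refine ⟨s • y, fun l hl => ?_, ?_⟩
  · have := hy (s • l) (h ⟨l, hl, rfl⟩)
    simpa only [inner_smul_left, inner_smul_right, conj_trivial] using this
  · simp only [smul_smul]
    rw [inv_mul_cancel₀ hs.ne', one_smul]

/-- A convex set containing the origin is contained in its dilates by factors `≥ 1`. -/
lemma subset_smul_of_one_le {M : Set (EuclideanSpace ℝ (Fin n))} (hconv : Convex ℝ M)
    (h0 : (0 : EuclideanSpace ℝ (Fin n)) ∈ M) {c : ℝ} (hc : 1 ≤ c) : M ⊆ c • M := by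
  intro x hx
  have hc0 : 0 < c := by linarith
  refine ⟨c⁻¹ • x, hconv.smul_mem_of_zero_mem h0 hx ⟨by positivity, inv_le_one_of_one_le₀ hc⟩, ?_⟩
  simp only [smul_smul]
  rw [mul_inv_cancel₀ hc0.ne', one_smul]

/-- A convex set containing the origin contains its dilates by factors in `[0, 1]`. -/
lemma smul_subset_of_le_one {M : Set (EuclideanSpace ℝ (Fin n))} (hconv : Convex ℝ M)
    (h0 : (0 : EuclideanSpace ℝ (Fin n)) ∈ M) {c : ℝ} (hc0 : 0 ≤ c) (hc : c ≤ 1) :
    c • M ⊆ M := by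
  rintro _ ⟨x, hx, rfl⟩
  exact hconv.smul_mem_of_zero_mem h0 hx ⟨hc0, hc⟩

/-- Real power comparison transferred to naturals. -/
lemma nat_le_of_pow {a b : ℝ} {m₀ m : ℕ} {d : ℕ} (h1 : (m₀ : ℝ) ≤ a ^ d) (hab : a ≤ b)
    (ha : 0 ≤ a) (h2 : b ^ d ≤ m) : m₀ ≤ m := by
  have : (m₀ : ℝ) ≤ m := h1.trans ((pow_le_pow_left₀ ha hab d).trans h2)
  exact_mod_cast this

/-- Packing cover in covering-number form: `r M` is covered by `m` translates of `s M`,
`m ≤ (1 + 2 r / s)^n`. -/
lemma good_cover {M : Set (EuclideanSpace ℝ (Fin n))}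
    (hM : MeasurableSet M ∧ Convex ℝ M ∧ (∀ x ∈ M, -x ∈ M) ∧ 0 < volume M ∧ volume M ≠ ⊤)
    {r s : ℝ} (hr : 0 ≤ r) (hs : 0 < s) :
    ∃ m : ℕ, CoveredBy m (r • M) (s • M) ∧ (m : ℝ) ≤ ((2 * r + s) / s) ^ n := by
  obtain ⟨hmeas, hconv, hsym, hpos, hfin⟩ := hM
  obtain ⟨m, x, hx, hb⟩ := packing_cover volume hmeas hconv hsym hpos hfin hr hs
  rw [finrank_euclideanSpace_fin] at hb
  refine ⟨m, coveredBy_iff.mpr ⟨x, hx⟩, ?_⟩
  rw [div_pow, le_div_iff₀ (by positivity)]
  exact hb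

/-- Volume bound in covering-number form. -/
lemma good_lower {M : Set (EuclideanSpace ℝ (Fin n))}
    (hM : MeasurableSet M ∧ Convex ℝ M ∧ (∀ x ∈ M, -x ∈ M) ∧ 0 < volume M ∧ volume M ≠ ⊤)
    {r s : ℝ} (hr : 0 ≤ r) (hs : 0 < s) {m : ℕ} (h : CoveredBy m (r • M) (s • M)) :
    (r / s) ^ n ≤ m := by
  obtain ⟨hmeas, hconv, hsym, hpos, hfin⟩ := hM
  obtain ⟨x, hx⟩ := coveredBy_iff.mp h
  have hb := vol_lower volume hpos hfin hr hs x hx
  rw [finrank_euclideanSpace_fin] at hb
  rw [div_pow, div_le_iff₀ (by positivity)]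
  exact hb

/-- Duality of covering numbers for pairs of origin-symmetric convex bodies at bounded
geometric distance. -/
theorem duality_bounded_distance (K L : Set (EuclideanSpace ℝ (Fin n)))
    (hL : IsSymConvexBody L) (s S C : ℝ) (hs : 0 < s) (hsS : s ≤ S)
    (hSC : S ≤ C * s) (h1 : s • L ⊆ K) (h2 : K ⊆ S • L) :
    0 < coveringNumber (polar L) ((3 * C) • polar K) ∧
      coveringNumber (polar L) ((3 * C) • polar K) ≤ coveringNumber K L ∧
      0 < coveringNumber K L ∧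
      coveringNumber K L ≤ coveringNumber (polar L) ((3 * C)⁻¹ • polar K) := by
  have hS : 0 < S := lt_of_lt_of_le hs hsS
  have hC : 1 ≤ C := by
    by_contra hcon
    push Not at hcon
    nlinarith
  have hC0 : 0 < C := by linarith
  have gL := body_good hL
  have gM := polar_good hL
  have hL0 : (0 : EuclideanSpace ℝ (Fin n)) ∈ L := zero_mem_of_sym volume gL.2.1 gL.2.2.1 gL.2.2.2.1
  have hM0 : (0 : EuclideanSpace ℝ (Fin n)) ∈ polar L :=
    zero_mem_of_sym volume gM.2.1 gM.2.2.1 gM.2.2.2.1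
  have hKne : K.Nonempty := ⟨0, h1 ⟨0, hL0, by simp⟩⟩
  have hMne : (polar L).Nonempty := ⟨0, hM0⟩
  -- inclusions for the polar of `K`
  have hin : S⁻¹ • polar L ⊆ polar K := polar_anti_smul hS h2
  have hout : polar K ⊆ s⁻¹ • polar L := polar_smul_anti hs h1
  -- existence of covers
  have exKL : ∃ m, CoveredBy m K L := by
    obtain ⟨m, hm, _⟩ := good_cover gL hS.le one_pos
    exact ⟨m, hm.mono h2 (by rw [one_smul])⟩
  have exbig : ∃ m, CoveredBy m (polar L) ((3 * C) • polar K) := by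
    obtain ⟨m, hm, _⟩ := good_cover gM zero_le_one (by positivity : 0 < 3 * C * S⁻¹)
    refine ⟨m, hm.mono (by rw [one_smul]) ?_⟩
    rw [← smul_smul]
    exact Set.smul_set_mono hin
  have exsmall : ∃ m, CoveredBy m (polar L) ((3 * C)⁻¹ • polar K) := by
    obtain ⟨m, hm, _⟩ := good_cover gM zero_le_one (by positivity : 0 < (3 * C)⁻¹ * S⁻¹)
    refine ⟨m, hm.mono (by rw [one_smul]) ?_⟩
    rw [← smul_smul]
    exact Set.smul_set_mono hin
  have posKL : 0 < coveringNumber K L := le_cov exKL (fun m hm => hm.pos hKne)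
  refine ⟨le_cov exbig (fun m hm => hm.pos hMne), ?_, posKL, ?_⟩
  · -- lower duality bound
    apply le_cov exKL
    intro m hm
    have hm1 : 1 ≤ m := hm.pos hKne
    by_cases hcase : S ≤ 3 * C
    · have hone : CoveredBy 1 (polar L) ((3 * C) • polar K) := by
        apply coveredBy_one
        have e : (1 : ℝ) ≤ 3 * C * S⁻¹ := by
          rw [← div_eq_mul_inv, le_div_iff₀ hS]; linarith
        refine (subset_smul_of_one_le gM.2.1 hM0 e).trans ?_
        rw [← smul_smul]
        exact Set.smul_set_mono hin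
      exact (cov_le hone).trans hm1
    · push Not at hcase
      obtain ⟨m₀, hm₀, hb₀⟩ := good_cover gM zero_le_one (by positivity : 0 < 3 * C * S⁻¹)
      have hcov₀ : CoveredBy m₀ (polar L) ((3 * C) • polar K) := by
        refine hm₀.mono (by rw [one_smul]) ?_
        rw [← smul_smul]
        exact Set.smul_set_mono hin
      have hlow : (s / 1) ^ n ≤ m :=
        good_lower gL hs.le one_pos (hm.mono h1 (by rw [one_smul]))
      refine (cov_le hcov₀).trans (nat_le_of_pow hb₀ ?_ (by positivity) hlow)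
      rw [div_one, div_le_iff₀ (by positivity)]
      have e : s * (3 * C * S⁻¹) = 3 * C * s / S := by field_simp
      have e2 : (2 * 1 + 3 * C * S⁻¹) * S = 2 * S + 3 * C := by field_simp
      rw [e, le_div_iff₀ hS, e2]
      nlinarith
  · -- upper duality bound
    apply le_cov exsmall
    intro m hm
    have hm1 : 1 ≤ m := hm.pos hMne
    have hlow : (1 / ((3 * C)⁻¹ * s⁻¹)) ^ n ≤ m := by
      apply good_lower gM zero_le_one (by positivity)
      refine hm.mono (by rw [one_smul]) ?_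
      rw [← smul_smul]
      exact Set.smul_set_mono hout
    by_cases hcase : S ≤ 1
    · have hone : CoveredBy 1 K L :=
        coveredBy_one (h2.trans (smul_subset_of_le_one gL.2.1 hL0 hS.le hcase))
      exact (cov_le hone).trans hm1
    · push Not at hcase
      obtain ⟨m₀, hm₀, hb₀⟩ := good_cover gL hS.le one_pos
      have hcov₀ : CoveredBy m₀ K L := hm₀.mono h2 (by rw [one_smul])
      refine (cov_le hcov₀).trans (nat_le_of_pow hb₀ ?_ (by positivity) hlow)
      have e : 1 / ((3 * C)⁻¹ * s⁻¹) = 3 * C * s := by field_simp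
      rw [e, div_one]
      nlinarith

end Vale.Agent.Lib.P126
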