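import Vale.Agent.Lib.P126.Defs

/-!
# P126: volumetric bounds for covering numbers of homothetic copies
-/

namespace Vale.Agent.Lib.P126

open MeasureTheory Set Pointwise

section generic

variable {E : Type*} [NormedAddCommGroup E] [NormedSpace ℝ E] [FiniteDimensional ℝ E]
  [MeasurableSpace E] [BorelSpace E]

/-- Volume lower bound: `m` translates of `s M` covering `r M` force `r^d ≤ m s^d`. -/
lemma vol_lower (μ : Measure E) [μ.IsAddHaarMeasure] {M : Set E} (hpos : 0 < μ M)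
    (hfin : μ M ≠ ⊤) {r s : ℝ} (hr : 0 ≤ r) (hs : 0 < s) {m : ℕ} (x : Fin m → E)
    (hcov : r • M ⊆ ⋃ i, (x i +ᵥ (s • M))) :
    r ^ (Module.finrank ℝ E) ≤ m * s ^ (Module.finrank ℝ E) := by
  have h1 : μ (r • M) ≤ ∑ i : Fin m, μ (x i +ᵥ (s • M)) :=
    (measure_mono hcov).trans (measure_iUnion_fintype_le μ _)
  simp only [measure_vadd, Measure.addHaar_smul, Finset.sum_const, Finset.card_univ,
    Fintype.card_fin, nsmul_eq_mul] at h1
  rw [abs_of_nonneg (pow_nonneg hr _), abs_of_nonneg (pow_nonneg hs.le _), ← mul_assoc] at h1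
  have h2 := (ENNReal.mul_le_mul_iff_left hpos.ne' hfin).mp h1
  rw [← ENNReal.ofReal_natCast, ← ENNReal.ofReal_mul (by positivity)] at h2
  exact (ENNReal.ofReal_le_ofReal_iff (by positivity)).mp h2

omit [FiniteDimensional ℝ E] [BorelSpace E] in
/-- A symmetric convex set of positive measure contains the origin. -/
lemma zero_mem_of_sym (μ : Measure E) {M : Set E} (hconv : Convex ℝ M)
    (hsym : ∀ x ∈ M, -x ∈ M) (hpos : 0 < μ M) : (0 : E) ∈ M := by
  have hne : M.Nonempty := by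
    by_contra h
    rw [Set.not_nonempty_iff_eq_empty] at h
    rw [h, measure_empty] at hpos
    exact lt_irrefl _ hpos
  obtain ⟨a, ha⟩ := hne
  have h := hconv ha (hsym a ha) (by norm_num : (0 : ℝ) ≤ 1 / 2) (by norm_num : (0 : ℝ) ≤ 1 / 2)
    (by norm_num)
  have h0 : (1 / 2 : ℝ) • a + (1 / 2 : ℝ) • (-a) = 0 := by
    rw [smul_neg, add_neg_cancel]
  rwa [h0] at h

/-- Cardinality bound for a packing of `r M` by translates of `h M`. -/
lemma packing_bound (μ : Measure E) [μ.IsAddHaarMeasure] {M : Set E} (hmeas : MeasurableSet M)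
    (hconv : Convex ℝ M) (hpos : 0 < μ M) (hfin : μ M ≠ ⊤)
    {r h : ℝ} (hr : 0 ≤ r) (hh : 0 < h) (T : Finset E) (hT : ∀ x ∈ T, x ∈ r • M)
    (hdis : (T : Set E).PairwiseDisjoint (fun x => x +ᵥ (h • M))) :
    (T.card : ℝ) * h ^ (Module.finrank ℝ E) ≤ (r + h) ^ (Module.finrank ℝ E) := by
  have hsub : (⋃ x ∈ T, (x +ᵥ (h • M))) ⊆ (r + h) • M := by
    rw [hconv.add_smul hr hh.le]
    intro z hz
    simp only [mem_iUnion, exists_prop] at hz
    obtain ⟨x, hx, hz⟩ := hz
    obtain ⟨b, hb, rfl⟩ := hz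
    exact Set.add_mem_add (hT x hx) hb
  have h1 : μ (⋃ x ∈ T, (x +ᵥ (h • M))) = ∑ x ∈ T, μ (x +ᵥ (h • M)) :=
    measure_biUnion_finset hdis (fun x _ => (hmeas.const_smul₀ h).const_vadd x)
  have h2 := measure_mono (μ := μ) hsub
  rw [h1] at h2
  simp only [measure_vadd, Measure.addHaar_smul, Finset.sum_const, nsmul_eq_mul] at h2
  rw [abs_of_nonneg (pow_nonneg hh.le _), abs_of_nonneg (pow_nonneg (by positivity) _),
    ← mul_assoc] at h2
  have h3 := (ENNReal.mul_le_mul_iff_left hpos.ne' hfin).mp h2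
  rw [← ENNReal.ofReal_natCast, ← ENNReal.ofReal_mul (by positivity)] at h3
  exact (ENNReal.ofReal_le_ofReal_iff (by positivity)).mp h3

/-- Packing upper bound: `r M` is covered by `m` translates of `s M` with
`m s^d ≤ (2 r + s)^d`. -/
lemma packing_cover (μ : Measure E) [μ.IsAddHaarMeasure] {M : Set E} (hmeas : MeasurableSet M)
    (hconv : Convex ℝ M) (hsym : ∀ x ∈ M, -x ∈ M) (hpos : 0 < μ M) (hfin : μ M ≠ ⊤)
    {r s : ℝ} (hr : 0 ≤ r) (hs : 0 < s) :
    ∃ (m : ℕ) (x : Fin m → E), r • M ⊆ ⋃ i, (x i +ᵥ (s • M)) ∧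
      (m : ℝ) * s ^ (Module.finrank ℝ E) ≤ (2 * r + s) ^ (Module.finrank ℝ E) := by
  classical
  have hh : 0 < s / 2 := by positivity
  have h0 : (0 : E) ∈ M := zero_mem_of_sym μ hconv hsym hpos
  set d := Module.finrank ℝ E with hd
  set S : Set ℕ := {k | ∃ T : Finset E, (∀ x ∈ T, x ∈ r • M) ∧
    (T : Set E).PairwiseDisjoint (fun x => x +ᵥ ((s / 2) • M)) ∧ T.card = k} with hS
  have hne : S.Nonempty := ⟨0, ∅, by simp, by simp, by simp⟩
  have hbdd : BddAbove S := by
    refine ⟨⌊(r + s / 2) ^ d / (s / 2) ^ d⌋₊, ?_⟩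
    rintro k ⟨T, hT, hdis, rfl⟩
    have hb := packing_bound μ hmeas hconv hpos hfin hr hh T hT hdis
    apply Nat.le_floor
    rw [le_div_iff₀ (by positivity)]
    exact hb
  obtain ⟨T, hT, hdis, hcard⟩ := Nat.sSup_mem hne hbdd
  have hmax : ∀ T' : Finset E, (∀ x ∈ T', x ∈ r • M) →
      (T' : Set E).PairwiseDisjoint (fun x => x +ᵥ ((s / 2) • M)) → T'.card ≤ T.card := by
    intro T' h1 h2
    rw [hcard]
    exact le_csSup hbdd ⟨T', h1, h2, rfl⟩
  have hcover : ∀ y ∈ r • M, ∃ x ∈ T, y ∈ x +ᵥ (s • M) := by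
    intro y hy
    by_cases hyT : y ∈ T
    · refine ⟨y, hyT, ?_⟩
      refine ⟨0, ⟨0, h0, by simp⟩, by simp⟩
    · by_contra hcon
      push Not at hcon
      have hins : (insert y T).card ≤ T.card := by
        apply hmax
        · intro x hx
          rw [Finset.mem_insert] at hx
          rcases hx with rfl | hx
          · exact hy
          · exact hT x hx
        · rw [Finset.coe_insert, Set.pairwiseDisjoint_insert]
          refine ⟨hdis, fun x hx _ => ?_⟩
          rw [Set.disjoint_left]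
          rintro z ⟨a, ha, rfl⟩ ⟨b, hb, hab⟩
          apply hcon x hx
          obtain ⟨a', ha', rfl⟩ := ha
          obtain ⟨b', hb', rfl⟩ := hb
          simp only [vadd_eq_add] at hab
          have hmid : (1 / 2 : ℝ) • b' + (1 / 2 : ℝ) • (-a') ∈ M :=
            hconv hb' (hsym a' ha') (by norm_num) (by norm_num) (by norm_num)
          refine ⟨s • ((1 / 2 : ℝ) • b' + (1 / 2 : ℝ) • (-a')), ⟨_, hmid, rfl⟩, ?_⟩
          simp only [vadd_eq_add]
          have e1 : y = x + (s / 2) • b' - (s / 2) • a' := by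
            rw [hab]; abel
          rw [e1, smul_add, smul_smul, smul_smul, smul_neg]
          have e2 : s * (1 / 2) = s / 2 := by ring
          rw [e2]; abel
      rw [Finset.card_insert_of_notMem hyT] at hins
      omega
  refine ⟨T.card, fun i => ((T.equivFin.symm i : T) : E), ?_, ?_⟩
  · intro y hy
    obtain ⟨x, hx, hyx⟩ := hcover y hy
    rw [mem_iUnion]
    refine ⟨T.equivFin ⟨x, hx⟩, ?_⟩
    simpa using hyx
  · have hb := packing_bound μ hmeas hconv hpos hfin hr hh T hT hdis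
    have e1 : (s / 2) ^ d = s ^ d / 2 ^ d := div_pow _ _ _
    have e2 : (r + s / 2) ^ d = (2 * r + s) ^ d / 2 ^ d := by
      rw [← div_pow]; congr 1; ring
    rw [e1, e2, ← mul_div_assoc, div_le_div_iff_of_pos_right (by positivity)] at hb
    exact hb

end generic

end Vale.Agent.Lib.P126
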